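import Vale.Agent.H40.KTV.GDefs
import Vale.Agent.H18.KTV.PairGap
import Vale.Agent.H12.GraphBridge

/-!
Final assembly (row R5b of the simple-graph split of P335), in hypotheses form:
from the vertex-triple inequality, the summed inequality over disjoint vertex pairs and
the comparison of the pair projections with the switch Dirichlet form, the Poincare
inequality with constant `2` for the switch Laplacian on every degree class `Omega d`.
-/

namespace Vale.Agent.H89

open Finset SimpleGraph
open scoped Classical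
open Vale.Agent.H90 (dot avgRel)
open Vale.Agent.H40.KTV
open Vale.Agent.H12.Switch (Omega lapΩ IsSwitch adjΩ)

section abstractGap

open Vale.Agent.H90 Vale.Agent.H18

variable {X : Type*} [Fintype X] {I : Type*} [Fintype I] [DecidableEq I]

/-- Abstract gap assembly, kernel version: the function `f` is only assumed orthogonal to
every function that is constant on all the fibres `r i j`, `i ≠ j`. -/
theorem gap_of_pair_ineq_ker (r : I → I → X → X → Prop) [∀ i j, DecidableRel (r i j)]
    (hr : ∀ i j, Equivalence (r i j))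
    (hsymm : ∀ i j x y, r i j x y ↔ r j i x y)
    (c : ℝ)
    (htri : ∀ (f : X → ℝ) (i j k : I), i ≠ j → j ≠ k → i ≠ k →
      0 ≤ dot (projQ (r i j) f) (projQ (r j k) f) + dot (projQ (r j k) f) (projQ (r k i) f)
        + dot (projQ (r k i) f) (projQ (r i j) f))
    (hdisj : ∀ f : X → ℝ,
      c * ∑ i, ∑ j, (if i ≠ j then dot (projQ (r i j) f) (projQ (r i j) f) else 0) ≤
        ∑ i, ∑ j, ∑ k, ∑ l,
          (if i ≠ j ∧ k ≠ l ∧ i ≠ k ∧ i ≠ l ∧ j ≠ k ∧ j ≠ l then
            dot (projQ (r i j) f) (projQ (r k l) f) else 0))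
    (f : X → ℝ)
    (hf : ∀ g : X → ℝ, (∀ i j x y, i ≠ j → r i j x y → g x = g y) → dot f g = 0) :
    (2 + c) * dot f f
      ≤ ∑ i, ∑ j, (if i ≠ j then dot (projQ (r i j) f) (projQ (r i j) f) else 0) := by
  set B : I → I → (X → ℝ) → (X → ℝ) := fun i j g => if i ≠ j then projQ (r i j) g else 0 with hB
  set A : (X → ℝ) → (X → ℝ) := fun g => ∑ i, ∑ j, B i j g with hA
  have hBadd : ∀ i j g h, B i j (g + h) = B i j g + B i j h := by
    intro i j g h
    simp only [hB]
    by_cases hij : i ≠ j
    · rw [if_pos hij, if_pos hij, if_pos hij, projQ_add]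
    · rw [if_neg hij, if_neg hij, if_neg hij, add_zero]
  have hBsmul : ∀ i j (t : ℝ) g, B i j (t • g) = t • B i j g := by
    intro i j t g
    simp only [hB]
    by_cases hij : i ≠ j
    · rw [if_pos hij, if_pos hij, projQ_smul]
    · rw [if_neg hij, if_neg hij, smul_zero]
  have hBsym : ∀ i j g h, dot g (B i j h) = dot (B i j g) h := by
    intro i j g h
    simp only [hB]
    by_cases hij : i ≠ j
    · rw [if_pos hij, if_pos hij, projQ_dot (hr i j)]
    · rw [if_neg hij, if_neg hij, dot_zero_left, dot_zero_right]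
  have hBB : ∀ i j k l g, dot (B i j g) (B k l g)
      = if i ≠ j ∧ k ≠ l then dot (projQ (r i j) g) (projQ (r k l) g) else 0 := by
    intro i j k l g
    simp only [hB]
    by_cases hij : i ≠ j
    · by_cases hkl : k ≠ l
      · rw [if_pos hij, if_pos hkl, if_pos ⟨hij, hkl⟩]
      · rw [if_neg hkl, if_neg (fun h : i ≠ j ∧ k ≠ l => hkl h.2), dot_zero_right]
    · rw [if_neg hij, if_neg (fun h : i ≠ j ∧ k ≠ l => hij h.1), dot_zero_left]
  have hBself : ∀ i j g, dot g (B i j g)
      = if i ≠ j then dot (projQ (r i j) g) (projQ (r i j) g) else 0 := by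
    intro i j g
    simp only [hB]
    by_cases hij : i ≠ j
    · rw [if_pos hij, if_pos hij, projQ_dot_self (hr i j)]
    · rw [if_neg hij, if_neg hij, dot_zero_right]
  have hadd : ∀ g h, A (g + h) = A g + A h := by
    intro g h
    simp only [hA]
    rw [← Finset.sum_add_distrib]
    refine Finset.sum_congr rfl (fun i _ => ?_)
    rw [← Finset.sum_add_distrib]
    exact Finset.sum_congr rfl (fun j _ => hBadd i j g h)
  have hsmul : ∀ (t : ℝ) g, A (t • g) = t • A g := by
    intro t g
    simp only [hA]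
    rw [Finset.smul_sum]
    refine Finset.sum_congr rfl (fun i _ => ?_)
    rw [Finset.smul_sum]
    exact Finset.sum_congr rfl (fun j _ => hBsmul i j t g)
  have hdotA : ∀ g h, dot g (A h) = ∑ i, ∑ j, dot g (B i j h) := by
    intro g h
    simp only [hA]
    rw [dot_sum_right]
    exact Finset.sum_congr rfl (fun i _ => dot_sum_right _ _ _)
  have hAdot : ∀ g h, dot (A g) h = ∑ i, ∑ j, dot (B i j g) h := by
    intro g h
    simp only [hA]
    rw [dot_sum_left]
    exact Finset.sum_congr rfl (fun i _ => dot_sum_left _ _ _)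
  have hsym : ∀ g h, dot g (A h) = dot (A g) h := by
    intro g h
    rw [hdotA, hAdot]
    exact Finset.sum_congr rfl (fun i _ => Finset.sum_congr rfl (fun j _ => hBsym i j g h))
  have hform : ∀ g, dot g (A g)
      = ∑ i, ∑ j, (if i ≠ j then dot (projQ (r i j) g) (projQ (r i j) g) else 0) := by
    intro g
    rw [hdotA]
    exact Finset.sum_congr rfl (fun i _ => Finset.sum_congr rfl (fun j _ => hBself i j g))
  have hsq : ∀ g, dot (A g) (A g)
      = ∑ i, ∑ j, ∑ k, ∑ l,
          (if i ≠ j ∧ k ≠ l then dot (projQ (r i j) g) (projQ (r k l) g) else 0) := by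
    intro g
    rw [hAdot]
    refine Finset.sum_congr rfl (fun i _ => Finset.sum_congr rfl (fun j _ => ?_))
    rw [hdotA]
    exact Finset.sum_congr rfl (fun k _ => Finset.sum_congr rfl (fun l _ => hBB i j k l g))
  have hformnn : ∀ g, 0 ≤ dot g (A g) := by
    intro g
    rw [hform]
    refine Finset.sum_nonneg (fun i _ => Finset.sum_nonneg (fun j _ => ?_))
    by_cases hij : i ≠ j
    · rw [if_pos hij]; exact dot_self_nonneg _
    · rw [if_neg hij]
  have hcomb : ∀ g, (2 + c) * dot g (A g) ≤ dot (A g) (A g) := by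
    intro g
    rw [hform, hsq]
    refine comb_pair (fun i j k l => dot (projQ (r i j) g) (projQ (r k l) g)) ?_ ?_ ?_ c (hdisj g)
    · intro i j k l
      show dot (projQ (r i j) g) (projQ (r k l) g) = dot (projQ (r j i) g) (projQ (r k l) g)
      rw [projQ_congr (r i j) (r j i) (hsymm i j)]
    · intro i j k l
      show dot (projQ (r i j) g) (projQ (r k l) g) = dot (projQ (r i j) g) (projQ (r l k) g)
      rw [projQ_congr (r k l) (r l k) (hsymm k l)]
    · intro i j k h1 h2 h3
      exact htri g i j k h1 h2 h3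
  have heig : ∀ (μ : ℝ) (g : X → ℝ), g ≠ 0 → A g = μ • g → μ = 0 ∨ (2 + c) ≤ μ := by
    intro μ g hg hAg
    have hpos : 0 < dot g g := by
      rcases (dot_self_nonneg g).lt_or_eq with h | h
      · exact h
      · exact absurd (dot_self_eq_zero h.symm) hg
    have h1 := hcomb g
    have h2 := hformnn g
    rw [hAg, dot_smul_left, dot_smul_right] at h1
    rw [hAg, dot_smul_right] at h2
    have hμ : 0 ≤ μ := by
      by_contra hneg
      rw [not_le] at hneg
      nlinarith
    rcases hμ.lt_or_eq with h | h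
    · right
      have : (2 + c) * μ ≤ μ * μ := by
        have h3 : ((2 + c) * μ - μ * μ) * dot g g ≤ 0 := by nlinarith
        by_contra hcon
        rw [not_le] at hcon
        nlinarith
      by_contra hcon
      rw [not_le] at hcon
      nlinarith
    · left; exact h.symm
  have hker : ∀ g, A g = 0 → dot f g = 0 := by
    intro g hAg
    have h0 : dot g (A g) = 0 := by rw [hAg, dot_zero_right]
    rw [hform] at h0
    have hterm : ∀ i j, i ≠ j → projQ (r i j) g = 0 := by
      intro i j hij
      have hnn : ∀ i ∈ (univ : Finset I), 0 ≤ ∑ j,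
          (if i ≠ j then dot (projQ (r i j) g) (projQ (r i j) g) else 0) := by
        intro i _
        refine Finset.sum_nonneg (fun j _ => ?_)
        by_cases hij : i ≠ j
        · rw [if_pos hij]; exact dot_self_nonneg _
        · rw [if_neg hij]
      have h1 := (Finset.sum_eq_zero_iff_of_nonneg hnn).1 h0 i (Finset.mem_univ i)
      have hnn2 : ∀ j ∈ (univ : Finset I), 0 ≤
          (if i ≠ j then dot (projQ (r i j) g) (projQ (r i j) g) else 0) := by
        intro j _
        by_cases hij : i ≠ j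
        · rw [if_pos hij]; exact dot_self_nonneg _
        · rw [if_neg hij]
      have h2 := (Finset.sum_eq_zero_iff_of_nonneg hnn2).1 h1 j (Finset.mem_univ j)
      rw [if_pos hij] at h2
      exact dot_self_eq_zero h2
    exact hf g (fun i j x y hij hxy => const_of_projQ_eq_zero (hr i j) g (hterm i j hij) hxy)
  have hfin := Vale.Agent.H58.spec_gap A hadd hsmul hsym (2 + c) heig f hker
  rw [hform] at hfin
  exact hfin

end abstractGap

variable {V : Type} [Fintype V]

theorem SD_equiv : Equivalence (SD (V := V)) :=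
  ⟨fun _ _ => rfl, fun h v => (h v).symm, fun h1 h2 v => (h1 v).trans (h2 v)⟩

theorem Rel_equiv (S : Set (Sym2 V)) : Equivalence (Rel S) :=
  ⟨fun _ => ⟨fun _ => rfl, fun _ _ => Iff.rfl⟩,
   fun h => ⟨fun v => (h.1 v).symm, fun e he => (h.2 e he).symm⟩,
   fun h1 h2 => ⟨fun v => (h1.1 v).trans (h2.1 v), fun e he => (h1.2 e he).trans (h2.2 e he)⟩⟩

theorem RP_equiv (u v : V) : Equivalence (RP u v) := Rel_equiv (EP u v)

omit [Fintype V] in
theorem EP_comm (u v : V) : EP u v = EP v u := by
  ext e
  unfold EP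
  exact or_comm

theorem RP_comm (u v : V) (G H : SimpleGraph V) : RP u v G H ↔ RP v u G H := by
  unfold RP
  rw [EP_comm]

theorem QP_comm (u v : V) (f : SimpleGraph V → ℝ) : QP u v f = QP v u f := by
  unfold QP
  rw [Vale.Agent.H90.avgRel_congr (RP u v) (RP v u) (RP_comm u v)]

/-- a switch stays inside a pair fibre -/
theorem RP_of_swap (G : SimpleGraph V) (a b c e : V)
    (hab : G.Adj a b) (hce : G.Adj c e) (hac : ¬ G.Adj a c) (hbe : ¬ G.Adj b e)
    (hac' : a ≠ c) (hbe' : b ≠ e) :
    RP a e G (Vale.Agent.H12.Switch.swap G a b c e) := by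
  refine ⟨fun v => (Vale.Agent.H12.Switch.swap_degree G a b c e hab hce hac hbe hac' hbe' v).symm,
    ?_⟩
  intro p
  induction p using Sym2.ind with
  | _ x y =>
    intro hp
    have hp' : ¬ (a = x ∨ a = y ∨ e = x ∨ e = y) := by
      intro h
      apply hp
      unfold EP
      simp only [Set.mem_ofPred_eq, Sym2.mem_iff]
      tauto
    rw [mem_edgeSet, mem_edgeSet, Vale.Agent.H12.Switch.swap_adj]
    simp only [Sym2.eq_iff]
    have hne : G.Adj x y → x ≠ y := fun h => h.ne
    constructor
    · intro h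
      left
      refine ⟨h, ?_⟩
      rintro ⟨h1 | h1, -⟩
      · rcases h1 with ⟨h2, -⟩ | ⟨-, h2⟩
        · exact hp' (Or.inl h2.symm)
        · exact hp' (Or.inr (Or.inl h2.symm))
      · rcases h1 with ⟨-, h2⟩ | ⟨h2, -⟩
        · exact hp' (Or.inr (Or.inr (Or.inr h2.symm)))
        · exact hp' (Or.inr (Or.inr (Or.inl h2.symm)))
    · rintro (⟨h, -⟩ | ⟨h1 | h1, -⟩)
      · exact h
      · rcases h1 with ⟨h2, -⟩ | ⟨-, h2⟩
        · exact absurd (Or.inl h2.symm) hp'
        · exact absurd (Or.inr (Or.inl h2.symm)) hp'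
      · rcases h1 with ⟨-, h2⟩ | ⟨h2, -⟩
        · exact absurd (Or.inr (Or.inr (Or.inr h2.symm))) hp'
        · exact absurd (Or.inr (Or.inr (Or.inl h2.symm))) hp'

/-- a function that is constant on every pair fibre is constant on every degree class -/
theorem const_of_pair_const (g : SimpleGraph V → ℝ)
    (hg : ∀ (u v : V) (G H : SimpleGraph V), u ≠ v → RP u v G H → g G = g H)
    (G H : SimpleGraph V) (hGH : SD G H) : g G = g H := by
  have key : ∀ H : SimpleGraph V, Relation.ReflTransGen IsSwitch G H → g G = g H := by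
    intro H hconn
    induction hconn with
    | refl => rfl
    | tail _ hstep ih =>
      rw [ih]
      obtain ⟨a, b, c, e, hac', hbe', hab, hce, hac, hbe, rfl⟩ := hstep
      have hae : a ≠ e := by
        rintro rfl
        exact hac hce.symm
      exact hg a e _ _ hae (RP_of_swap _ a b c e hab hce hac hbe hac' hbe')
  exact key H (Vale.Agent.H12.Switch.switch_connected G H hGH)

/-- the operator inequality on all simple graphs, from the three hypotheses -/
theorem graph_main_of
    (htri : ∀ (u v w : V), u ≠ v → v ≠ w → u ≠ w → ∀ f : SimpleGraph V → ℝ,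
      0 ≤ dot (QP u v f) (QP v w f) + dot (QP u v f) (QP u w f) + dot (QP v w f) (QP u w f))
    (hdp : ∀ f : SimpleGraph V → ℝ,
      2 * ∑ u, ∑ v, (if u ≠ v then dot (QP u v f) (QP u v f) else 0)
        ≤ ∑ u, ∑ v, ∑ w, ∑ z, (if Dist4 u v w z then dot (QP u v f) (QP w z f) else 0))
    (hkl : ∀ f : SimpleGraph V → ℝ,
      ∑ u, ∑ v, (if u ≠ v then dot (QP u v f) (QP u v f) else 0)
        ≤ ∑ G : SimpleGraph V, ∑ G' : SimpleGraph V,
            (if IsSwitch G G' then (f G - f G') ^ 2 else 0))
    (F : SimpleGraph V → ℝ) :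
    4 * ∑ G, (F G - avgRel SD F G) ^ 2
      ≤ ∑ G : SimpleGraph V, ∑ G' : SimpleGraph V,
          (if IsSwitch G G' then (F G - F G') ^ 2 else 0) := by
  set g : SimpleGraph V → ℝ := F - avgRel SD F with hg
  -- orthogonality to the kernel
  have horth : ∀ h : SimpleGraph V → ℝ,
      (∀ (u v : V) (G H : SimpleGraph V), u ≠ v → RP u v G H → h G = h H) → dot g h = 0 := by
    intro h hh
    have hc : ∀ G H : SimpleGraph V, SD G H → h G = h H := const_of_pair_const h hh
    have e1 : avgRel SD h = h := Vale.Agent.H90.avgRel_eq_self SD_equiv h hc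
    rw [hg, Vale.Agent.H90.dot_sub_left, ← Vale.Agent.H90.avgRel_dot SD_equiv, e1, sub_self]
  have habs := gap_of_pair_ineq_ker (X := SimpleGraph V) (I := V) (fun u v => RP u v)
    (fun u v => RP_equiv u v) (fun u v G H => RP_comm u v G H) 2
    (by
      intro f i j k hij hjk hik
      have h := htri i j k hij hjk hik f
      have e1 : dot (QP j k f) (QP k i f) = dot (QP j k f) (QP i k f) := by
        rw [QP_comm k i]
      have e2 : dot (QP k i f) (QP i j f) = dot (QP i j f) (QP i k f) := by
        rw [QP_comm k i, Vale.Agent.H90.dot_comm]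
      show 0 ≤ dot (QP i j f) (QP j k f) + dot (QP j k f) (QP k i f) + dot (QP k i f) (QP i j f)
      rw [e1, e2]
      linarith)
    (by
      intro f
      have h := hdp f
      have e : ∑ i, ∑ j, ∑ k, ∑ l,
          (if i ≠ j ∧ k ≠ l ∧ i ≠ k ∧ i ≠ l ∧ j ≠ k ∧ j ≠ l then
            dot (QP i j f) (QP k l f) else 0)
          = ∑ u, ∑ v, ∑ w, ∑ z, (if Dist4 u v w z then dot (QP u v f) (QP w z f) else 0) := by
        refine Finset.sum_congr rfl (fun i _ => Finset.sum_congr rfl (fun j _ =>
          Finset.sum_congr rfl (fun k _ => Finset.sum_congr rfl (fun l _ => ?_))))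
        by_cases hd : Dist4 i j k l
        · rw [if_pos hd, if_pos ⟨hd.1, hd.2.2.2.2.2, hd.2.1, hd.2.2.1, hd.2.2.2.1, hd.2.2.2.2.1⟩]
        · rw [if_neg hd, if_neg (fun h' => hd ⟨h'.1, h'.2.2.1, h'.2.2.2.1, h'.2.2.2.2.1,
            h'.2.2.2.2.2, h'.2.1⟩)]
      show 2 * ∑ i, ∑ j, (if i ≠ j then dot (QP i j f) (QP i j f) else 0) ≤
        ∑ i, ∑ j, ∑ k, ∑ l,
          (if i ≠ j ∧ k ≠ l ∧ i ≠ k ∧ i ≠ l ∧ j ≠ k ∧ j ≠ l then
            dot (QP i j f) (QP k l f) else 0)
      rw [e]
      exact h)
    g horth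
  have habs' : (2 + 2) * dot g g
      ≤ ∑ u, ∑ v, (if u ≠ v then dot (QP u v g) (QP u v g) else 0) := habs
  have hk := hkl g
  have e1 : dot g g = ∑ G, (F G - avgRel SD F G) ^ 2 := by
    unfold Vale.Agent.H90.dot
    refine Finset.sum_congr rfl (fun G _ => ?_)
    rw [hg, Pi.sub_apply]
    ring
  have e2 : ∑ G : SimpleGraph V, ∑ G' : SimpleGraph V,
      (if IsSwitch G G' then (g G - g G') ^ 2 else 0)
      = ∑ G : SimpleGraph V, ∑ G' : SimpleGraph V,
          (if IsSwitch G G' then (F G - F G') ^ 2 else 0) := by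
    refine Finset.sum_congr rfl (fun G _ => Finset.sum_congr rfl (fun G' _ => ?_))
    by_cases hs : IsSwitch G G'
    · rw [if_pos hs, if_pos hs, hg, Pi.sub_apply, Pi.sub_apply]
      have hsd : SD G G' := fun v => (Vale.Agent.H12.Switch.IsSwitch.degree hs v).symm
      rw [Vale.Agent.H90.avgRel_of_rel SD_equiv F hsd]
      ring
    · rw [if_neg hs, if_neg hs]
  rw [e1] at habs'
  rw [e2] at hk
  linarith

/-- **Row R5b.** Final assembly in hypotheses form: the Poincare inequality with constant `2`
for the switch Laplacian on every degree class. -/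
theorem graph_poincare_of
    (htri : ∀ (u v w : V), u ≠ v → v ≠ w → u ≠ w → ∀ f : SimpleGraph V → ℝ,
      0 ≤ dot (QP u v f) (QP v w f) + dot (QP u v f) (QP u w f) + dot (QP v w f) (QP u w f))
    (hdp : ∀ f : SimpleGraph V → ℝ,
      2 * ∑ u, ∑ v, (if u ≠ v then dot (QP u v f) (QP u v f) else 0)
        ≤ ∑ u, ∑ v, ∑ w, ∑ z, (if Dist4 u v w z then dot (QP u v f) (QP w z f) else 0))
    (hkl : ∀ f : SimpleGraph V → ℝ,
      ∑ u, ∑ v, (if u ≠ v then dot (QP u v f) (QP u v f) else 0)
        ≤ ∑ G : SimpleGraph V, ∑ G' : SimpleGraph V,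
            (if IsSwitch G G' then (f G - f G') ^ 2 else 0))
    (d : V → ℕ) (f : Omega d → ℝ) (hf : ∑ G, f G = 0) :
    2 * ∑ G, f G ^ 2 ≤ ∑ G, f G * lapΩ d f G := by
  have h := Vale.Agent.H12.Switch.gap_of_main (V := V) SD (fun _ _ => Iff.rfl) 4
    (graph_main_of htri hdp hkl) d f hf
  have e : (4 : ℝ) / 2 = 2 := by norm_num
  rw [e] at h
  exact h

end Vale.Agent.H89
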