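import Vale.Agent.H40.KTV.GBasic

/-!
Square completion on the non-critical part (row R1c of the simple-graph split of P335):
if the block `{u, v} x {w, z}` of `G` does not have exactly two edges, a graph in the pair
fibre of `{u, v}` and a graph in the pair fibre of `{w, z}` of `G` have a common completion.
-/

namespace Vale.Agent.H89

open Finset SimpleGraph
open scoped Classical
open Vale.Agent.H90 (dot avgRel)
open Vale.Agent.H40.KTV

variable {V : Type} [Fintype V]

omit [Fintype V] in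
theorem bl_le_one (K : SimpleGraph V) (a b : V) : bl K a b ≤ 1 := by
  unfold bl
  split_ifs <;> omega

omit [Fintype V] in
theorem bl_comm (K : SimpleGraph V) (a b : V) : bl K a b = bl K b a := by
  unfold bl
  by_cases h : K.Adj a b
  · rw [if_pos h, if_pos h.symm]
  · rw [if_neg h, if_neg (fun h' => h h'.symm)]

omit [Fintype V] in
theorem bl_congr {K K' : SimpleGraph V} {a b : V} (h : K.Adj a b ↔ K'.Adj a b) :
    bl K a b = bl K' a b := by
  unfold bl
  by_cases h' : K.Adj a b
  · rw [if_pos h', if_pos (h.1 h')]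
  · rw [if_neg h', if_neg (fun h'' => h' (h.2 h''))]

omit [Fintype V] in
theorem bl_of_iff {K : SimpleGraph V} {a b : V} {P : Prop} [Decidable P] (h : K.Adj a b ↔ P) :
    bl K a b = if P then 1 else 0 := by
  unfold bl
  by_cases h' : K.Adj a b
  · rw [if_pos h', if_pos (h.1 h')]
  · rw [if_neg h', if_neg (fun h'' => h' (h.2 h''))]

/-- the degree of `t` along the pairs meeting `{a, b}`, for `t` outside `{a, b}` -/
theorem degIn_EP (a b : V) (hab : a ≠ b) (K : SimpleGraph V) (t : V) (hta : t ≠ a) (htb : t ≠ b) :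
    degIn (EP a b) K t = bl K t a + bl K t b := by
  unfold degIn
  rw [Finset.card_filter]
  have e : ∀ x : V, (if s(t, x) ∈ EP a b ∧ K.Adj t x then 1 else 0 : ℕ)
      = (if x = a then bl K t a else 0) + (if x = b then bl K t b else 0) := by
    intro x
    by_cases hxa : x = a
    · have hxb : x ≠ b := fun hxb => hab (hxa.symm.trans hxb)
      have hm : s(t, x) ∈ EP a b := by
        rw [mem_EP]
        exact Or.inl (Or.inr hxa)
      rw [if_pos hxa, if_neg hxb, add_zero]
      unfold bl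
      by_cases hadj : K.Adj t x
      · rw [if_pos ⟨hm, hadj⟩, if_pos (hxa ▸ hadj)]
      · rw [if_neg (fun h => hadj h.2), if_neg (fun h => hadj (hxa ▸ h))]
    · by_cases hxb : x = b
      · have hm : s(t, x) ∈ EP a b := by
          rw [mem_EP]
          exact Or.inr (Or.inr hxb)
        rw [if_neg hxa, if_pos hxb, zero_add]
        unfold bl
        by_cases hadj : K.Adj t x
        · rw [if_pos ⟨hm, hadj⟩, if_pos (hxb ▸ hadj)]
        · rw [if_neg (fun h => hadj h.2), if_neg (fun h => hadj (hxb ▸ h))]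
      · rw [if_neg hxa, if_neg hxb, if_neg]
        intro h
        have h' := h.1
        rw [mem_EP] at h'
        tauto
  rw [Finset.sum_congr rfl (fun x _ => e x), Finset.sum_add_distrib, Finset.sum_ite_eq',
    Finset.sum_ite_eq']
  simp

/-- **Square completion from a block.** A graph `H` that agrees with `G₁` off the pairs
meeting `{w, z}`, with `G₂` off the pairs meeting `{u, v}`, and whose block has the row sums
of the block of `G₁` and the column sums of the block of `G₂`, completes the square. -/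
theorem sq_of_block (u v w z : V) (h : Dist4 u v w z) (G₁ G G₂ : SimpleGraph V)
    (h1 : RP u v G₁ G) (h2 : RP w z G G₂) (H : SimpleGraph V)
    (hH1 : ∀ a b, s(a, b) ∉ EP w z → (H.Adj a b ↔ G₁.Adj a b))
    (hH2 : ∀ a b, s(a, b) ∉ EP u v → (H.Adj a b ↔ G₂.Adj a b))
    (hru : bl H u w + bl H u z = bl G₁ u w + bl G₁ u z)
    (hrv : bl H v w + bl H v z = bl G₁ v w + bl G₁ v z)
    (hcw : bl H u w + bl H v w = bl G₂ u w + bl G₂ v w)
    (hcz : bl H u z + bl H v z = bl G₂ u z + bl G₂ v z) :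
    RP w z G₁ H ∧ RP u v H G₂ := by
  obtain ⟨huv, huw, huz, hvw, hvz, hwz⟩ := h
  have hsd : SD G₁ H := by
    intro t
    by_cases htu : t = u
    · have e1 := degree_split (EP w z) G₁ u
      have e2 := degree_split (EP w z) H u
      have e3 := degOut_congr (S := EP w z) hH1 u
      have e4 := degIn_EP w z hwz G₁ u huw huz
      have e5 := degIn_EP w z hwz H u huw huz
      rw [htu]
      omega
    by_cases htv : t = v
    · have e1 := degree_split (EP w z) G₁ v
      have e2 := degree_split (EP w z) H v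
      have e3 := degOut_congr (S := EP w z) hH1 v
      have e4 := degIn_EP w z hwz G₁ v hvw hvz
      have e5 := degIn_EP w z hwz H v hvw hvz
      rw [htv]
      omega
    by_cases htw : t = w
    · have e1 := degree_split (EP u v) G₂ w
      have e2 := degree_split (EP u v) H w
      have e3 := degOut_congr (S := EP u v) hH2 w
      have e4 := degIn_EP u v huv G₂ w (Ne.symm huw) (Ne.symm hvw)
      have e5 := degIn_EP u v huv H w (Ne.symm huw) (Ne.symm hvw)
      have e6 := bl_comm H w u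
      have e7 := bl_comm H w v
      have e8 := bl_comm G₂ w u
      have e9 := bl_comm G₂ w v
      have e10 := h1.1 w
      have e11 := h2.1 w
      rw [htw]
      omega
    by_cases htz : t = z
    · have e1 := degree_split (EP u v) G₂ z
      have e2 := degree_split (EP u v) H z
      have e3 := degOut_congr (S := EP u v) hH2 z
      have e4 := degIn_EP u v huv G₂ z (Ne.symm huz) (Ne.symm hvz)
      have e5 := degIn_EP u v huv H z (Ne.symm huz) (Ne.symm hvz)
      have e6 := bl_comm H z u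
      have e7 := bl_comm H z v
      have e8 := bl_comm G₂ z u
      have e9 := bl_comm G₂ z v
      have e10 := h1.1 z
      have e11 := h2.1 z
      rw [htz]
      omega
    · have m1 : s(t, u) ∉ EP w z := by
        rw [mem_EP]
        tauto
      have m2 : s(t, v) ∉ EP w z := by
        rw [mem_EP]
        tauto
      have e1 := degree_split (EP u v) G₂ t
      have e2 := degree_split (EP u v) H t
      have e3 := degOut_congr (S := EP u v) hH2 t
      have e4 := degIn_EP u v huv G₂ t htu htv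
      have e5 := degIn_EP u v huv H t htu htv
      have e6 : bl H t u = bl G₁ t u := bl_congr (hH1 t u m1)
      have e7 : bl H t v = bl G₁ t v := bl_congr (hH1 t v m2)
      have e8 := degIn_of_rel h1 t
      have e9 := degIn_EP u v huv G₁ t htu htv
      have e10 := degIn_EP u v huv G t htu htv
      have e11 : bl G t u = bl G₂ t u := bl_congr (rel_adj h2 m1)
      have e12 : bl G t v = bl G₂ t v := bl_congr (rel_adj h2 m2)
      have e13 := h1.1 t
      have e14 := h2.1 t
      omega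
  constructor
  · exact rel_of_adj hsd (fun a b hab => (hH1 a b hab).symm)
  · exact rel_of_adj (sd_trans (sd_symm hsd) (sd_trans h1.1 h2.1)) hH2

/-- a graph whose edges inside the block `{u, v} x {w, z}` are prescribed -/
def zgraph (u v w z : V) (P11 P12 P21 P22 : Prop) : SimpleGraph V :=
  SimpleGraph.fromEdgeSet
    {e | (e = s(u, w) ∧ P11) ∨ (e = s(u, z) ∧ P12) ∨ (e = s(v, w) ∧ P21) ∨ (e = s(v, z) ∧ P22)}

/-- the graph with prescribed block, equal to `G₂` on the other pairs meeting `{w, z}` and to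
`G₁` elsewhere -/
def sqGraph (u v w z : V) (P11 P12 P21 P22 : Prop) (G₁ G₂ : SimpleGraph V) : SimpleGraph V :=
  paste (EP u v ∩ EP w z) (zgraph u v w z P11 P12 P21 P22) (paste (EP w z) G₂ G₁)

theorem sqGraph_off_q (u v w z : V) (P11 P12 P21 P22 : Prop) (G₁ G₂ : SimpleGraph V) (a b : V)
    (hab : s(a, b) ∉ EP w z) : (sqGraph u v w z P11 P12 P21 P22 G₁ G₂).Adj a b ↔ G₁.Adj a b := by
  unfold sqGraph
  rw [paste_adj, if_neg (fun h => hab h.2), paste_adj, if_neg hab]

theorem sqGraph_off_p (u v w z : V) (P11 P12 P21 P22 : Prop) (G₁ G₂ : SimpleGraph V) (a b : V)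
    (hab : s(a, b) ∉ EP u v) :
    (sqGraph u v w z P11 P12 P21 P22 G₁ G₂).Adj a b ↔
      if s(a, b) ∈ EP w z then G₂.Adj a b else G₁.Adj a b := by
  unfold sqGraph
  rw [paste_adj, if_neg (fun h => hab h.1), paste_adj]

theorem sqGraph_block (u v w z : V) (h : Dist4 u v w z) (P11 P12 P21 P22 : Prop)
    (G₁ G₂ : SimpleGraph V) :
    ((sqGraph u v w z P11 P12 P21 P22 G₁ G₂).Adj u w ↔ P11) ∧
    ((sqGraph u v w z P11 P12 P21 P22 G₁ G₂).Adj u z ↔ P12) ∧
    ((sqGraph u v w z P11 P12 P21 P22 G₁ G₂).Adj v w ↔ P21) ∧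
    ((sqGraph u v w z P11 P12 P21 P22 G₁ G₂).Adj v z ↔ P22) := by
  obtain ⟨huv, huw, huz, hvw, hvz, hwz⟩ := h
  have m : ∀ a b, (a = u ∨ a = v) → (b = w ∨ b = z) → s(a, b) ∈ EP u v ∩ EP w z := by
    intro a b ha hb
    constructor
    · rw [mem_EP]
      tauto
    · rw [mem_EP]
      tauto
  refine ⟨?_, ?_, ?_, ?_⟩
  · unfold sqGraph
    rw [paste_adj, if_pos (m u w (Or.inl rfl) (Or.inl rfl))]
    unfold zgraph
    rw [fromEdgeSet_adj]
    constructor
    · rintro ⟨h | h | h | h, -⟩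
      · exact h.2
      · rcases Sym2.eq_iff.1 h.1 with ⟨-, h'⟩ | ⟨h', -⟩
        · exact absurd h' hwz
        · exact absurd h' huz
      · rcases Sym2.eq_iff.1 h.1 with ⟨h', -⟩ | ⟨h', -⟩
        · exact absurd h' huv
        · exact absurd h' huw
      · rcases Sym2.eq_iff.1 h.1 with ⟨h', -⟩ | ⟨h', -⟩
        · exact absurd h' huv
        · exact absurd h' huz
    · intro hP
      exact ⟨Or.inl ⟨rfl, hP⟩, huw⟩
  · unfold sqGraph
    rw [paste_adj, if_pos (m u z (Or.inl rfl) (Or.inr rfl))]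
    unfold zgraph
    rw [fromEdgeSet_adj]
    constructor
    · rintro ⟨h | h | h | h, -⟩
      · rcases Sym2.eq_iff.1 h.1 with ⟨-, h'⟩ | ⟨h', -⟩
        · exact absurd h'.symm hwz
        · exact absurd h' huw
      · exact h.2
      · rcases Sym2.eq_iff.1 h.1 with ⟨h', -⟩ | ⟨h', -⟩
        · exact absurd h' huv
        · exact absurd h' huw
      · rcases Sym2.eq_iff.1 h.1 with ⟨h', -⟩ | ⟨h', -⟩
        · exact absurd h' huv
        · exact absurd h' huz
    · intro hP
      exact ⟨Or.inr (Or.inl ⟨rfl, hP⟩), huz⟩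
  · unfold sqGraph
    rw [paste_adj, if_pos (m v w (Or.inr rfl) (Or.inl rfl))]
    unfold zgraph
    rw [fromEdgeSet_adj]
    constructor
    · rintro ⟨h | h | h | h, -⟩
      · rcases Sym2.eq_iff.1 h.1 with ⟨h', -⟩ | ⟨h', -⟩
        · exact absurd h'.symm huv
        · exact absurd h' hvw
      · rcases Sym2.eq_iff.1 h.1 with ⟨h', -⟩ | ⟨h', -⟩
        · exact absurd h'.symm huv
        · exact absurd h' hvz
      · exact h.2
      · rcases Sym2.eq_iff.1 h.1 with ⟨-, h'⟩ | ⟨h', -⟩
        · exact absurd h' hwz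
        · exact absurd h' hvz
    · intro hP
      exact ⟨Or.inr (Or.inr (Or.inl ⟨rfl, hP⟩)), hvw⟩
  · unfold sqGraph
    rw [paste_adj, if_pos (m v z (Or.inr rfl) (Or.inr rfl))]
    unfold zgraph
    rw [fromEdgeSet_adj]
    constructor
    · rintro ⟨h | h | h | h, -⟩
      · rcases Sym2.eq_iff.1 h.1 with ⟨h', -⟩ | ⟨h', -⟩
        · exact absurd h'.symm huv
        · exact absurd h' hvw
      · rcases Sym2.eq_iff.1 h.1 with ⟨h', -⟩ | ⟨h', -⟩
        · exact absurd h'.symm huv
        · exact absurd h' hvz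
      · rcases Sym2.eq_iff.1 h.1 with ⟨-, h'⟩ | ⟨h', -⟩
        · exact absurd h'.symm hwz
        · exact absurd h' hvw
      · exact h.2
    · intro hP
      exact ⟨Or.inr (Or.inr (Or.inr ⟨rfl, hP⟩)), hvz⟩

/-- the arithmetic of a `2 x 2` block with prescribed row sums `a, b` and column sums `c, d`,
total `σ` different from `2` -/
theorem block_core (a b c d σ z1 z2 z3 z4 : ℕ) (ha : a ≤ 2) (hb : b ≤ 2) (hc : c ≤ 2) (hd : d ≤ 2)
    (hab : a + b = σ) (hcd : c + d = σ) (hs : σ ≠ 2)
    (hz1 : z1 = if σ + 2 < 2 * (a + c) then 1 else 0)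
    (hz2 : z2 = if σ + 2 < 2 * (a + d) then 1 else 0)
    (hz3 : z3 = if σ + 2 < 2 * (b + c) then 1 else 0)
    (hz4 : z4 = if σ + 2 < 2 * (b + d) then 1 else 0) :
    z1 + z2 = a ∧ z3 + z4 = b ∧ z1 + z3 = c ∧ z2 + z4 = d := by
  have ha' : a = 0 ∨ a = 1 ∨ a = 2 := by omega
  have hb' : b = 0 ∨ b = 1 ∨ b = 2 := by omega
  have hc' : c = 0 ∨ c = 1 ∨ c = 2 := by omega
  have hd' : d = 0 ∨ d = 1 ∨ d = 2 := by omega
  rcases ha' with rfl | rfl | rfl <;> rcases hb' with rfl | rfl | rfl <;>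
    rcases hc' with rfl | rfl | rfl <;> rcases hd' with rfl | rfl | rfl <;>
    first
    | omega
    | (subst hab
       norm_num at hz1 hz2 hz3 hz4
       omega)

/-- **Row R1c.** Square completion on the non-critical part. -/
theorem sq_noncrit (u v w z : V) (h : Dist4 u v w z) (G₁ G G₂ : SimpleGraph V)
    (hs : sig u v w z G ≠ 2) (h1 : RP u v G₁ G) (h2 : RP w z G G₂) :
    ∃ H, RP w z G₁ H ∧ RP u v H G₂ := by
  have hd := h
  obtain ⟨huv, huw, huz, hvw, hvz, hwz⟩ := h
  -- margins of the blocks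
  have hcw : bl G₁ u w + bl G₁ v w = bl G u w + bl G v w := by
    have e := degIn_of_rel h1 w
    rw [degIn_EP u v huv G₁ w (Ne.symm huw) (Ne.symm hvw),
      degIn_EP u v huv G w (Ne.symm huw) (Ne.symm hvw)] at e
    rw [bl_comm G₁ u w, bl_comm G₁ v w, bl_comm G u w, bl_comm G v w]
    exact e
  have hcz : bl G₁ u z + bl G₁ v z = bl G u z + bl G v z := by
    have e := degIn_of_rel h1 z
    rw [degIn_EP u v huv G₁ z (Ne.symm huz) (Ne.symm hvz),
      degIn_EP u v huv G z (Ne.symm huz) (Ne.symm hvz)] at e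
    rw [bl_comm G₁ u z, bl_comm G₁ v z, bl_comm G u z, bl_comm G v z]
    exact e
  have hru : bl G u w + bl G u z = bl G₂ u w + bl G₂ u z := by
    have e := degIn_of_rel h2 u
    rw [degIn_EP w z hwz G u huw huz, degIn_EP w z hwz G₂ u huw huz] at e
    exact e
  have hrv : bl G v w + bl G v z = bl G₂ v w + bl G₂ v z := by
    have e := degIn_of_rel h2 v
    rw [degIn_EP w z hwz G v hvw hvz, degIn_EP w z hwz G₂ v hvw hvz] at e
    exact e
  have hsig : sig u v w z G = bl G u w + bl G u z + bl G v w + bl G v z := rfl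
  -- the completed graph
  obtain ⟨hb11, hb12, hb21, hb22⟩ := sqGraph_block u v w z hd
    (sig u v w z G + 2 < 2 * ((bl G₁ u w + bl G₁ u z) + (bl G₂ u w + bl G₂ v w)))
    (sig u v w z G + 2 < 2 * ((bl G₁ u w + bl G₁ u z) + (bl G₂ u z + bl G₂ v z)))
    (sig u v w z G + 2 < 2 * ((bl G₁ v w + bl G₁ v z) + (bl G₂ u w + bl G₂ v w)))
    (sig u v w z G + 2 < 2 * ((bl G₁ v w + bl G₁ v z) + (bl G₂ u z + bl G₂ v z))) G₁ G₂
  have hH1 := sqGraph_off_q u v w z
    (sig u v w z G + 2 < 2 * ((bl G₁ u w + bl G₁ u z) + (bl G₂ u w + bl G₂ v w)))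
    (sig u v w z G + 2 < 2 * ((bl G₁ u w + bl G₁ u z) + (bl G₂ u z + bl G₂ v z)))
    (sig u v w z G + 2 < 2 * ((bl G₁ v w + bl G₁ v z) + (bl G₂ u w + bl G₂ v w)))
    (sig u v w z G + 2 < 2 * ((bl G₁ v w + bl G₁ v z) + (bl G₂ u z + bl G₂ v z))) G₁ G₂
  have hH2' := sqGraph_off_p u v w z
    (sig u v w z G + 2 < 2 * ((bl G₁ u w + bl G₁ u z) + (bl G₂ u w + bl G₂ v w)))
    (sig u v w z G + 2 < 2 * ((bl G₁ u w + bl G₁ u z) + (bl G₂ u z + bl G₂ v z)))
    (sig u v w z G + 2 < 2 * ((bl G₁ v w + bl G₁ v z) + (bl G₂ u w + bl G₂ v w)))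
    (sig u v w z G + 2 < 2 * ((bl G₁ v w + bl G₁ v z) + (bl G₂ u z + bl G₂ v z))) G₁ G₂
  generalize sqGraph u v w z
    (sig u v w z G + 2 < 2 * ((bl G₁ u w + bl G₁ u z) + (bl G₂ u w + bl G₂ v w)))
    (sig u v w z G + 2 < 2 * ((bl G₁ u w + bl G₁ u z) + (bl G₂ u z + bl G₂ v z)))
    (sig u v w z G + 2 < 2 * ((bl G₁ v w + bl G₁ v z) + (bl G₂ u w + bl G₂ v w)))
    (sig u v w z G + 2 < 2 * ((bl G₁ v w + bl G₁ v z) + (bl G₂ u z + bl G₂ v z))) G₁ G₂ = H
    at hb11 hb12 hb21 hb22 hH1 hH2'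
  have hH2 : ∀ a b, s(a, b) ∉ EP u v → (H.Adj a b ↔ G₂.Adj a b) := by
    intro a b hab
    rw [hH2' a b hab]
    by_cases hq : s(a, b) ∈ EP w z
    · rw [if_pos hq]
    · rw [if_neg hq, rel_adj h1 hab, rel_adj h2 hq]
  have z1 := bl_of_iff hb11
  have z2 := bl_of_iff hb12
  have z3 := bl_of_iff hb21
  have z4 := bl_of_iff hb22
  have b1 := bl_le_one G₁ u w
  have b2 := bl_le_one G₁ u z
  have b3 := bl_le_one G₁ v w
  have b4 := bl_le_one G₁ v z
  have b5 := bl_le_one G₂ u w
  have b6 := bl_le_one G₂ u z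
  have b7 := bl_le_one G₂ v w
  have b8 := bl_le_one G₂ v z
  obtain ⟨r1, r2, c1, c2⟩ := block_core (bl G₁ u w + bl G₁ u z) (bl G₁ v w + bl G₁ v z)
    (bl G₂ u w + bl G₂ v w) (bl G₂ u z + bl G₂ v z) (sig u v w z G)
    (bl H u w) (bl H u z) (bl H v w) (bl H v z) (by omega) (by omega) (by omega) (by omega)
    (by omega) (by omega) hs z1 z2 z3 z4
  exact ⟨H, sq_of_block u v w z hd G₁ G G₂ h1 h2 H hH1 hH2 r1 r2 c1 c2⟩

end Vale.Agent.H89
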